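import Mathlib

namespace Vale.Agent.Lib.P043

variable {G : Type*} [AddCommGroup G]

/-- `A ⊕ F = G`: every `g` has a unique expression `g = a + f` with `a ∈ A`, `f ∈ F`. -/
def IsTiling (A : Set G) (F : Finset G) : Prop :=
  ∀ g : G, ∃! q : G × G, q.1 ∈ A ∧ q.2 ∈ F ∧ q.1 + q.2 = g

open Classical in
/-- Every point of `G` is covered exactly `k` times by the translates `a + F`, `a ∈ A`. -/
def IsLevelTiling (k : ℕ) (A : Set G) (F : Finset G) : Prop :=
  ∀ x : G, (F.filter (fun f => x - f ∈ A)).card = k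

/-- `A + h = A` for all `h` in the subgroup `L`. -/
def InvariantUnder (A : Set G) (L : AddSubgroup G) : Prop :=
  ∀ h ∈ L, ∀ a : G, a + h ∈ A ↔ a ∈ A

/-- `A` is invariant under a subgroup of finite index. -/
def IsPeriodic (A : Set G) : Prop :=
  ∃ L : AddSubgroup G, L.FiniteIndex ∧ InvariantUnder A L

/-- `F` is contained in a line `f₀ + ℤ t`. -/
def IsCollinear (F : Finset G) : Prop :=
  ∃ f₀ t : G, ∀ f ∈ F, ∃ n : ℤ, f = f₀ + n • t

end Vale.Agent.Lib.P043
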