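import Vale.Agent.Lib.P043.Prime
open Finset
open scoped Pointwise

namespace Vale.Agent.Lib.P043

variable {G : Type*} [AddCommGroup G]

open Classical in
/-- number of `f ∈ F` with `x - f ∈ A` -/
noncomputable def cnt (A : Set G) (F : Finset G) (x : G) : ℕ :=
  (F.filter (fun f => x - f ∈ A)).card

lemma cnt_eq_sum (A : Set G) (F : Finset G) (x : G) :
    cnt A F x = ∑ f ∈ F, (open Classical in if x - f ∈ A then 1 else 0) := by
  classical
  unfold cnt
  rw [Finset.card_filter]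

lemma cnt_add [DecidableEq G] (A : Set G) (F₁ F₂ : Finset G)
    (hdir : (F₁ + F₂).card = F₁.card * F₂.card) (x : G) :
    cnt A (F₁ + F₂) x = ∑ f₂ ∈ F₂, cnt A F₁ (x - f₂) := by
  classical
  rw [Finset.card_add_iff] at hdir
  simp only [cnt_eq_sum]
  have : F₁ + F₂ = (F₁ ×ˢ F₂).image (fun p => p.1 + p.2) := by
    ext z
    simp only [Finset.mem_add, Finset.mem_image, Finset.mem_product, Prod.exists]
    constructor
    · rintro ⟨a, ha, b, hb, rfl⟩; exact ⟨a, b, ⟨ha, hb⟩, rfl⟩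
    · rintro ⟨a, b, ⟨ha, hb⟩, rfl⟩; exact ⟨a, ha, b, hb, rfl⟩
  rw [this, Finset.sum_image (by
    intro p hp q hq h
    exact hdir (by simpa using hp) (by simpa using hq) h)]
  rw [Finset.sum_product_right]
  refine Finset.sum_congr rfl fun f₂ _ => Finset.sum_congr rfl fun f₁ _ => ?_
  have : x - (f₁ + f₂) = x - f₂ - f₁ := by abel
  rw [this]

/-- Shearing a set `A` along the cosets of `H ⊔ L` without changing its `F`-counting function. -/
lemma shear (H L : AddSubgroup G) (F : Finset G) (f0 : G)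
    (hFH : ∀ f ∈ F, f - f0 ∈ H) (A : Set G)
    (hL : ∀ l ∈ L, ∀ z, cnt A F (z + l) = cnt A F z)
    (hHL : H ⊓ L ≤ stab A) :
    ∃ A' : Set G, (∀ z, cnt A' F z = cnt A F z) ∧ L ≤ stab A' ∧ H ⊓ stab A ≤ stab A' := by
  classical
  set M := H ⊔ L with hM
  let rep : G → G := fun y => Quotient.out (QuotientAddGroup.mk y : G ⧸ M)
  have hrep_mem : ∀ y, y - rep y ∈ M := by
    intro y
    have : (QuotientAddGroup.mk (rep y) : G ⧸ M) = QuotientAddGroup.mk y :=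
      QuotientAddGroup.out_eq' _
    rw [QuotientAddGroup.eq] at this
    have e : y - rep y = -rep y + y := by abel
    rw [e]; exact this
  have hrep_eq : ∀ y m, m ∈ M → rep (y + m) = rep y := by
    intro y m hm
    have : (QuotientAddGroup.mk (y + m) : G ⧸ M) = QuotientAddGroup.mk y := by
      rw [QuotientAddGroup.eq]
      have e : -(y + m) + y = -m := by abel
      rw [e]; exact M.neg_mem hm
    simp only [rep, this]
  let A' : Set G := {y | ∃ h ∈ H, ∃ l ∈ L, y - rep y = h + l ∧ y - l ∈ A}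
  have hwd : ∀ y h l, h ∈ H → l ∈ L → y - rep y = h + l → (y ∈ A' ↔ y - l ∈ A) := by
    intro y h l hh hl hy
    constructor
    · rintro ⟨h', hh', l', hl', hy', hA'⟩
      have hd : l' - l ∈ stab A := by
        apply hHL
        refine ⟨?_, L.sub_mem hl' hl⟩
        have : l' - l = h - h' := by
          have := hy.symm.trans hy'
          rw [sub_eq_sub_iff_add_eq_add]
          rw [add_comm l' h', ← this]
        change l' - l ∈ H
        rw [this]; exact H.sub_mem hh hh'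
      have := (hd (y - l')).mpr hA'
      have e : y - l' + (l' - l) = y - l := by abel
      rwa [e] at this
    · intro hAh
      exact ⟨h, hh, l, hl, hy, hAh⟩
  refine ⟨A', ?_, ?_, ?_⟩
  · intro z
    obtain ⟨h0, hh0, l0, hl0, he⟩ := AddSubgroup.mem_sup.mp (hrep_mem (z - f0))
    have h1 : cnt A' F z = cnt A F (z + -l0) := by
      unfold cnt
      congr 1
      apply Finset.filter_congr
      intro f hf
      have hfM : -(f - f0) ∈ M := M.neg_mem (AddSubgroup.mem_sup_left (hFH f hf))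
      have e1 : z - f = z - f0 + -(f - f0) := by abel
      have e2 : rep (z - f) = rep (z - f0) := by rw [e1]; exact hrep_eq _ _ hfM
      have := hwd (z - f) (h0 - (f - f0)) l0 (H.sub_mem hh0 (hFH f hf)) hl0
        (by rw [e2]
            have : z - f - rep (z - f0) = (z - f0 - rep (z - f0)) - (f - f0) := by abel
            rw [this, ← he]; abel)
      rw [this]
      have e3 : z - f - l0 = z + -l0 - f := by abel
      rw [e3]
    rw [h1, hL _ (L.neg_mem hl0)]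
  · intro l0 hl0 y
    have hl0M : l0 ∈ M := AddSubgroup.mem_sup_right hl0
    have e2 : rep (y + l0) = rep y := hrep_eq _ _ hl0M
    obtain ⟨h, hh, l, hl, hy⟩ := AddSubgroup.mem_sup.mp (hrep_mem y)
    rw [hwd y h l hh hl hy.symm]
    rw [hwd (y + l0) h (l + l0) hh (L.add_mem hl hl0)
      (by rw [e2]
          have : y + l0 - rep y = (y - rep y) + l0 := by abel
          rw [this, ← hy]; abel)]
    have : y + l0 - (l + l0) = y - l := by abel
    rw [this]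
  · rintro μ ⟨hμH, hμS⟩ y
    have hμM : μ ∈ M := AddSubgroup.mem_sup_left hμH
    have e2 : rep (y + μ) = rep y := hrep_eq _ _ hμM
    obtain ⟨h, hh, l, hl, hy⟩ := AddSubgroup.mem_sup.mp (hrep_mem y)
    rw [hwd y h l hh hl hy.symm]
    rw [hwd (y + μ) (h + μ) l (H.add_mem hh hμH) hl
      (by rw [e2]
          have : y + μ - rep y = (y - rep y) + μ := by abel
          rw [this, ← hy]; abel)]
    have : y + μ - l = y - l + μ := by abel
    rw [this]
    exact hμS (y - l)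

/-- the sumset `A + F` -/
def sumSet (A : Set G) (F : Finset G) : Set G := {z | ∃ f ∈ F, z - f ∈ A}

lemma cnt_pos_iff (A : Set G) (F : Finset G) (z : G) : 0 < cnt A F z ↔ z ∈ sumSet A F := by
  classical
  unfold cnt sumSet
  rw [Finset.card_pos]
  constructor
  · rintro ⟨f, hf⟩
    rw [mem_filter] at hf
    exact ⟨f, hf.1, hf.2⟩
  · rintro ⟨f, hf, hz⟩
    exact ⟨f, mem_filter.mpr ⟨hf, hz⟩⟩

lemma cnt_unique (A : Set G) (F : Finset G) (x : G) (h : cnt A F x ≤ 1) (g g' : G)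
    (hg : g ∈ F) (hg' : g' ∈ F) (h1 : x - g ∈ A) (h2 : x - g' ∈ A) : g = g' := by
  classical
  unfold cnt at h
  rw [Finset.card_le_one] at h
  exact h g (mem_filter.mpr ⟨hg, h1⟩) g' (mem_filter.mpr ⟨hg', h2⟩)

section two
variable [DecidableEq G] (A : Set G) (F₁ F₂ : Finset G)
  (hdir : (F₁ + F₂).card = F₁.card * F₂.card) (hT : ∀ x, cnt A (F₁ + F₂) x = 1)

include hdir hT

lemma cnt_le_one (z : G) : cnt A F₁ z ≤ 1 := by
  have hne : F₂.Nonempty := by
    by_contra h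
    rw [Finset.not_nonempty_iff_eq_empty] at h
    have := hT 0
    rw [cnt_add A F₁ F₂ hdir, h] at this
    simp at this
  obtain ⟨f₂, hf₂⟩ := hne
  have h1 := hT (z + f₂)
  rw [cnt_add A F₁ F₂ hdir] at h1
  have h2 := Finset.single_le_sum (f := fun f => cnt A F₁ (z + f₂ - f)) (fun _ _ => Nat.zero_le _) hf₂
  simp only [add_sub_cancel_right] at h2
  omega

lemma cnt_eq_ite (z : G) :
    cnt A F₁ z = (open Classical in if z ∈ sumSet A F₁ then 1 else 0) := by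
  classical
  have h1 := cnt_le_one A F₁ F₂ hdir hT z
  have h2 := cnt_pos_iff A F₁ z
  split_ifs with h
  · have := h2.mpr h; omega
  · have : ¬ 0 < cnt A F₁ z := fun h' => h (h2.mp h'); omega

lemma sumSet_tiling : IsLevelTiling 1 (sumSet A F₁) F₂ := by
  classical
  intro x
  have h1 := hT x
  rw [cnt_add A F₁ F₂ hdir] at h1
  rw [Finset.card_filter]
  refine Eq.trans (Finset.sum_congr rfl fun f _ => ?_) h1
  rw [cnt_eq_ite A F₁ F₂ hdir hT]

lemma cnt_stab (μ : G) (hμ : μ ∈ stab (sumSet A F₁)) (z : G) :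
    cnt A F₁ (z + μ) = cnt A F₁ z := by
  classical
  rw [cnt_eq_ite A F₁ F₂ hdir hT, cnt_eq_ite A F₁ F₂ hdir hT]
  have := hμ z
  simp only [this]

end two

lemma claim_one_aux [DecidableEq G] (A : Set G) (F₁ F₂ : Finset G)
    (hdir : (F₁ + F₂).card = F₁.card * F₂.card) (hT : ∀ x, cnt A (F₁ + F₂) x = 1)
    (μ : G) (h1 : μ ∈ stab (sumSet A F₁)) (h2 : μ ∈ stab (sumSet A F₂)) (a : G) (ha : a ∈ A) :
    a + μ ∈ A := by
  have hne : (F₁ + F₂).Nonempty := by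
    by_contra h
    rw [Finset.not_nonempty_iff_eq_empty] at h
    have := hT 0
    rw [h] at this
    simp [cnt] at this
  obtain ⟨g, hg⟩ := hne
  obtain ⟨f₁, hf₁, f₂, hf₂, -⟩ := Finset.mem_add.mp hg
  have m1 : a + f₁ ∈ sumSet A F₁ := ⟨f₁, hf₁, by simpa using ha⟩
  have m2 : a + f₂ ∈ sumSet A F₂ := ⟨f₂, hf₂, by simpa using ha⟩
  obtain ⟨f₁', hf₁', h1'⟩ := (h1 (a + f₁)).mpr m1
  obtain ⟨f₂', hf₂', h2'⟩ := (h2 (a + f₂)).mpr m2
  have key := cnt_unique A (F₁ + F₂) (a + μ + f₁ + f₂) (hT _).le (f₁' + f₂) (f₁ + f₂')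
    (Finset.add_mem_add hf₁' hf₂) (Finset.add_mem_add hf₁ hf₂')
    (by have : a + μ + f₁ + f₂ - (f₁' + f₂) = a + f₁ + μ - f₁' := by abel
        rw [this]; exact h1')
    (by have : a + μ + f₁ + f₂ - (f₁ + f₂') = a + f₂ + μ - f₂' := by abel
        rw [this]; exact h2')
  rw [Finset.card_add_iff] at hdir
  have := hdir (x₁ := (f₁', f₂)) (x₂ := (f₁, f₂')) (by simp [hf₁', hf₂]) (by simp [hf₁, hf₂']) key
  have e : f₁' = f₁ := congrArg Prod.fst this
  rw [e] at h1'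
  have : a + f₁ + μ - f₁ = a + μ := by abel
  rwa [this] at h1'

lemma claim_one [DecidableEq G] (A : Set G) (F₁ F₂ : Finset G)
    (hdir : (F₁ + F₂).card = F₁.card * F₂.card) (hT : ∀ x, cnt A (F₁ + F₂) x = 1) :
    stab (sumSet A F₁) ⊓ stab (sumSet A F₂) ≤ stab A := by
  rintro μ ⟨h1, h2⟩ a
  constructor
  · intro ha
    have := claim_one_aux A F₁ F₂ hdir hT (-μ) ((stab _).neg_mem h1) ((stab _).neg_mem h2) _ ha
    simpa using this
  · exact claim_one_aux A F₁ F₂ hdir hT μ h1 h2 a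


/-- `F` is `e`-rigid in `G`: every tiling `B ⊕ F = G` is invariant under all `e (f - f')`. -/
def IsRigid (e : ℕ) (F : Finset G) : Prop :=
  ∀ B : Set G, IsLevelTiling 1 B F → ∀ f ∈ F, ∀ f' ∈ F, e • (f - f') ∈ stab B

lemma rigid_closure (e : ℕ) (F : Finset G) (hR : IsRigid e F) (f0 : G) (hf0 : f0 ∈ F)
    (B : Set G) (hB : IsLevelTiling 1 B F) :
    ∀ h ∈ AddSubgroup.closure ((fun f => f - f0) '' (F : Set G)), e • h ∈ stab B := by
  intro h hh
  induction hh using AddSubgroup.closure_induction with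
  | mem x hx =>
    obtain ⟨f, hf, rfl⟩ := hx
    exact hR B hB f hf f0 hf0
  | zero => simp
  | add x y _ _ hx hy => rw [smul_add]; exact (stab B).add_mem hx hy
  | neg x _ hx => rw [smul_neg]; exact (stab B).neg_mem hx

theorem two_rigid_periodic [AddGroup.FG G] [DecidableEq G] (F₁ F₂ : Finset G) (e₁ e₂ : ℕ)
    (he₁ : 0 < e₁) (he₂ : 0 < e₂) (hR₁ : IsRigid e₁ F₁) (hR₂ : IsRigid e₂ F₂)
    (hdir : (F₁ + F₂).card = F₁.card * F₂.card) (A : Set G)
    (hA : IsLevelTiling 1 A (F₁ + F₂)) :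
    ∃ A' : Set G, IsLevelTiling 1 A' (F₁ + F₂) ∧ IsPeriodic A' := by
  have hdir' : (F₂ + F₁).card = F₂.card * F₁.card := by rw [add_comm, hdir, mul_comm]
  have hne : (F₁ + F₂).Nonempty := by
    by_contra h
    rw [Finset.not_nonempty_iff_eq_empty] at h
    have := hA 0
    rw [h] at this
    simp at this
  obtain ⟨g0, hg0⟩ := hne
  obtain ⟨f₁, hf₁, f₂, hf₂, -⟩ := Finset.mem_add.mp hg0
  set H₁ : AddSubgroup G := AddSubgroup.closure ((fun f => f - f₁) '' (F₁ : Set G)) with hH₁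
  set H₂ : AddSubgroup G := AddSubgroup.closure ((fun f => f - f₂) '' (F₂ : Set G)) with hH₂
  -- invariance of the partial sumsets, for every tiling
  have hB₂ : ∀ A : Set G, (∀ x, cnt A (F₁ + F₂) x = 1) → ∀ h ∈ H₂, e₂ • h ∈ stab (sumSet A F₁) :=
    fun A hT => rigid_closure e₂ F₂ hR₂ f₂ hf₂ _ (sumSet_tiling A F₁ F₂ hdir hT)
  have hB₁ : ∀ A : Set G, (∀ x, cnt A (F₁ + F₂) x = 1) → ∀ h ∈ H₁, e₁ • h ∈ stab (sumSet A F₂) :=
    fun A hT => rigid_closure e₁ F₁ hR₁ f₁ hf₁ _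
      (sumSet_tiling A F₂ F₁ hdir' (fun x => by rw [add_comm]; exact hT x))
  obtain ⟨m₁, hm₁, hexp₁⟩ := exists_exponent H₁
  obtain ⟨m₂, hm₂, hexp₂⟩ := exists_exponent H₂
  obtain ⟨m, hm, hexp⟩ := exists_exponent (H₁ ⊔ H₂)
  set N₁ := e₁ * m₁ with hN₁
  set N₂ := N₁ * (e₂ * m₂) with hN₂
  set N₃ := m * (e₁ * e₂ * N₂) with hN₃
  have hN₁pos : 0 < N₁ := Nat.mul_pos he₁ hm₁
  have hN₂pos : 0 < N₂ := Nat.mul_pos hN₁pos (Nat.mul_pos he₂ hm₂)
  have hN₃pos : 0 < N₃ := Nat.mul_pos hm (Nat.mul_pos (Nat.mul_pos he₁ he₂) hN₂pos)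
  set L₂ : AddSubgroup G := H₂.map (nsmulAddMonoidHom e₂) ⊓ (nsmulAddMonoidHom (α := G) N₁).range
    with hL₂
  set L₁ : AddSubgroup G := H₁.map (nsmulAddMonoidHom e₁) ⊓ (nsmulAddMonoidHom (α := G) N₂).range
    with hL₁
  set L₃ : AddSubgroup G := (nsmulAddMonoidHom (α := G) N₃).range with hL₃
  have hT : ∀ x, cnt A (F₁ + F₂) x = 1 := hA
  -- Step 1
  obtain ⟨A₁, hc₁, hL₂A₁, -⟩ := shear H₁ L₂ F₁ f₁
    (fun f hf => AddSubgroup.subset_closure ⟨f, hf, rfl⟩) A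
    (by
      rintro l ⟨⟨h, hh, rfl⟩, -⟩ z
      exact cnt_stab A F₁ F₂ hdir hT _ (hB₂ A hT h hh) z)
    (by
      rintro x ⟨hxH, ⟨h, hh, hx⟩, ⟨g, hg⟩⟩
      apply claim_one A F₁ F₂ hdir hT
      refine ⟨?_, ?_⟩
      · rw [← hx]; exact hB₂ A hT h hh
      · change N₁ • g = x at hg
        have h1 : m₁ • g ∈ H₁ := hexp₁ g N₁ hN₁pos (by rw [hg]; exact hxH)
        rw [← hg, hN₁, mul_smul]
        exact hB₁ A hT _ h1)
  have hT₁ : ∀ x, cnt A₁ (F₁ + F₂) x = 1 := by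
    intro x
    rw [cnt_add A₁ F₁ F₂ hdir, ← hT x, cnt_add A F₁ F₂ hdir]
    exact Finset.sum_congr rfl fun f _ => hc₁ _
  have hT₁' : ∀ x, cnt A₁ (F₂ + F₁) x = 1 := fun x => by rw [add_comm]; exact hT₁ x
  -- Step 2
  obtain ⟨A₂, hc₂, hL₁A₂, hkeep⟩ := shear H₂ L₁ F₂ f₂
    (fun f hf => AddSubgroup.subset_closure ⟨f, hf, rfl⟩) A₁
    (by
      rintro l ⟨⟨h, hh, rfl⟩, -⟩ z
      exact cnt_stab A₁ F₂ F₁ hdir' hT₁' _ (hB₁ A₁ hT₁ h hh) z)
    (by
      rintro x ⟨hxH, -, ⟨g, hg⟩⟩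
      change N₂ • g = x at hg
      apply hL₂A₁
      refine ⟨?_, ?_⟩
      · have h1 : m₂ • g ∈ H₂ := hexp₂ g N₂ hN₂pos (by rw [hg]; exact hxH)
        refine ⟨N₁ • (m₂ • g), H₂.nsmul_mem h1 _, ?_⟩
        change e₂ • (N₁ • (m₂ • g)) = x
        rw [← hg, hN₂, ← mul_smul, ← mul_smul]
        congr 1; ring
      · refine ⟨(e₂ * m₂) • g, ?_⟩
        change N₁ • ((e₂ * m₂) • g) = x
        rw [← hg, ← mul_smul])
  have hT₂ : ∀ x, cnt A₂ (F₁ + F₂) x = 1 := by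
    intro x
    rw [add_comm, cnt_add A₂ F₂ F₁ hdir', ← hT₁' x, cnt_add A₁ F₂ F₁ hdir']
    exact Finset.sum_congr rfl fun f _ => hc₂ _
  have hL₂A₂ : L₂ ≤ stab A₂ := by
    intro x hx
    apply hkeep
    refine ⟨?_, hL₂A₁ hx⟩
    obtain ⟨⟨h, hh, rfl⟩, -⟩ := hx
    exact H₂.nsmul_mem hh _
  -- Step 3
  obtain ⟨A₃, hc₃, hL₃A₃, -⟩ := shear (H₁ ⊔ H₂) L₃ (F₁ + F₂) (f₁ + f₂)
    (by
      intro f hf
      obtain ⟨a, ha, b, hb, rfl⟩ := Finset.mem_add.mp hf
      have : a + b - (f₁ + f₂) = (a - f₁) + (b - f₂) := by abel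
      rw [this]
      exact AddSubgroup.add_mem _
        (AddSubgroup.mem_sup_left (AddSubgroup.subset_closure ⟨a, ha, rfl⟩))
        (AddSubgroup.mem_sup_right (AddSubgroup.subset_closure ⟨b, hb, rfl⟩)))
    A₂ (by intro l _ z; rw [hT₂, hT₂])
    (by
      rintro x ⟨hxH, ⟨g, hg⟩⟩
      change N₃ • g = x at hg
      have h1 : m • g ∈ H₁ ⊔ H₂ := hexp g N₃ hN₃pos (by rw [hg]; exact hxH)
      obtain ⟨h₁, hh₁, h₂, hh₂, he⟩ := AddSubgroup.mem_sup.mp h1
      have hx : x = (e₁ * e₂ * N₂) • h₁ + (e₁ * e₂ * N₂) • h₂ := by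
        rw [← smul_add, he, ← hg, hN₃, ← mul_smul]
        congr 1; ring
      rw [hx]
      refine (stab A₂).add_mem (hL₁A₂ ⟨?_, ?_⟩) (hL₂A₂ ⟨?_, ?_⟩)
      · refine ⟨(e₂ * N₂) • h₁, H₁.nsmul_mem hh₁ _, ?_⟩
        change e₁ • ((e₂ * N₂) • h₁) = _
        rw [← mul_smul]; congr 1; ring
      · refine ⟨(e₁ * e₂) • h₁, ?_⟩
        change N₂ • ((e₁ * e₂) • h₁) = _
        rw [← mul_smul]; congr 1; ring
      · refine ⟨(e₁ * N₂) • h₂, H₂.nsmul_mem hh₂ _, ?_⟩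
        change e₂ • ((e₁ * N₂) • h₂) = _
        rw [← mul_smul]; congr 1; ring
      · refine ⟨(e₁ * e₂ * (e₂ * m₂)) • h₂, ?_⟩
        change N₁ • ((e₁ * e₂ * (e₂ * m₂)) • h₂) = _
        rw [← mul_smul, hN₂]; congr 1; ring)
  refine ⟨A₃, fun x => ?_, L₃, finiteIndex_nsmul_range _ hN₃pos, fun h hh a => hL₃A₃ hh a⟩
  exact (hc₃ x).trans (hT₂ x)

lemma prime_rigid (F : Finset G) (hp : F.card.Prime) : IsRigid F.card F :=
  fun B hB f hf f' hf' => prime_stab F.card hp F rfl 1 B hB f f' hf hf'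

end Vale.Agent.Lib.P043
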