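import Vale.Agent.Lib.P043.DirectSum
open Finset

namespace Vale.Agent.Lib.P043

/-- Newman: a tiling of `ℤ` by a finite set `J ⊆ [0, D]` containing `0` and `D` has a period
`q ≤ 2 ^ D`. -/
lemma newman_period (J : Finset ℤ) (D : ℕ) (h0 : (0 : ℤ) ∈ J) (hD : (D : ℤ) ∈ J)
    (hJ : ∀ j ∈ J, 0 ≤ j ∧ j ≤ D) (B : Set ℤ) (hB : IsTiling B J) :
    ∃ q : ℕ, 0 < q ∧ q ≤ 2 ^ D ∧ ∀ x : ℤ, x + q ∈ B ↔ x ∈ B := by
  classical
  -- forward determinism
  have F1 : ∀ x : ℤ, x ∈ B ↔ ¬ ∃ b ∈ B, x - D ≤ b ∧ b < x ∧ x - b ∈ J := by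
    intro x
    obtain ⟨⟨b0, f0⟩, ⟨hb0, hf0, hs⟩, huniq⟩ := hB x
    simp only at hb0 hf0 hs
    constructor
    · rintro hx ⟨b, hb, -, hlt, hmem⟩
      have e1 := huniq (x, 0) ⟨hx, h0, by simp⟩
      have e2 := huniq (b, x - b) ⟨hb, hmem, by simp⟩
      have : x = b := by
        have := e1.trans e2.symm
        exact congrArg Prod.fst this
      omega
    · intro hno
      by_contra hx
      apply hno
      have hf := hJ f0 hf0
      have hne : f0 ≠ 0 := by
        rintro rfl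
        apply hx
        have : b0 = x := by omega
        rwa [← this]
      refine ⟨b0, hb0, by omega, by omega, ?_⟩
      have : x - b0 = f0 := by omega
      rwa [this]
  -- backward determinism
  have F2 : ∀ x : ℤ, x ∈ B ↔ ¬ ∃ b ∈ B, x < b ∧ b ≤ x + D ∧ x + D - b ∈ J := by
    intro x
    obtain ⟨⟨b0, f0⟩, ⟨hb0, hf0, hs⟩, huniq⟩ := hB (x + D)
    simp only at hb0 hf0 hs
    constructor
    · rintro hx ⟨b, hb, hlt, -, hmem⟩
      have e1 := huniq (x, D) ⟨hx, hD, by simp⟩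
      have e2 := huniq (b, x + D - b) ⟨hb, hmem, by simp⟩
      have : x = b := by
        have := e1.trans e2.symm
        exact congrArg Prod.fst this
      omega
    · intro hno
      by_contra hx
      apply hno
      have hf := hJ f0 hf0
      have hne : f0 ≠ D := by
        rintro rfl
        apply hx
        have : b0 = x := by omega
        rwa [← this]
      refine ⟨b0, hb0, by omega, by omega, ?_⟩
      have : x + D - b0 = f0 := by omega
      rwa [this]
  -- windows and pigeonhole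
  let W : ℕ → Finset ℕ := fun n => (Finset.range D).filter (fun i => ((n : ℤ) + i) ∈ B)
  have hpig : ∃ n ∈ Finset.range (2 ^ D + 1), ∃ m ∈ Finset.range (2 ^ D + 1), n ≠ m ∧ W n = W m := by
    apply Finset.exists_ne_map_eq_of_card_lt_of_maps_to (t := (Finset.range D).powerset)
    · simp
    · intro n _
      simp only [W, Finset.coe_powerset, Set.mem_preimage, Set.mem_powerset_iff]
      exact_mod_cast Finset.filter_subset _ _
  -- wlog n < m
  obtain ⟨n, m, hnm, hm, hW⟩ : ∃ n m : ℕ, n < m ∧ m ≤ 2 ^ D ∧ W n = W m := by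
    obtain ⟨n, hn, m, hm, hne, hW⟩ := hpig
    rw [Finset.mem_range] at hn hm
    rcases lt_or_gt_of_ne hne with h | h
    · exact ⟨n, m, h, by omega, hW⟩
    · exact ⟨m, n, h, by omega, hW.symm⟩
  have hwin : ∀ i : ℕ, i < D → (((n : ℤ) + i) ∈ B ↔ ((m : ℤ) + i) ∈ B) := by
    intro i hi
    have h1 : i ∈ W n ↔ ((n : ℤ) + i) ∈ B := by simp [W, hi]
    have h2 : i ∈ W m ↔ ((m : ℤ) + i) ∈ B := by simp [W, hi]
    rw [← h1, ← h2, hW]
  -- forward
  have hfwd : ∀ j : ℕ, (((n : ℤ) + j) ∈ B ↔ ((m : ℤ) + j) ∈ B) := by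
    intro j
    induction j using Nat.strong_induction_on with
    | _ j ih =>
      by_cases hj : j < D
      · exact hwin j hj
      · rw [F1 ((n : ℤ) + j), F1 ((m : ℤ) + j)]
        apply not_congr
        constructor
        · rintro ⟨b, hb, h1, h2, h3⟩
          obtain ⟨j', rfl⟩ : ∃ j' : ℕ, b = (n : ℤ) + j' := ⟨(b - n).toNat, by omega⟩
          refine ⟨(m : ℤ) + j', (ih j' (by omega)).mp hb, by omega, by omega, ?_⟩
          have : (m : ℤ) + j - (m + j') = (n : ℤ) + j - (n + j') := by ring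
          rwa [this]
        · rintro ⟨b, hb, h1, h2, h3⟩
          obtain ⟨j', rfl⟩ : ∃ j' : ℕ, b = (m : ℤ) + j' := ⟨(b - m).toNat, by omega⟩
          refine ⟨(n : ℤ) + j', (ih j' (by omega)).mpr hb, by omega, by omega, ?_⟩
          have : (n : ℤ) + j - (n + j') = (m : ℤ) + j - (m + j') := by ring
          rwa [this]
  -- backward
  have hbwd : ∀ j : ℕ, (((n : ℤ) - j) ∈ B ↔ ((m : ℤ) - j) ∈ B) := by
    intro j
    induction j using Nat.strong_induction_on with
    | _ j ih =>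
      by_cases hj : j = 0
      · subst hj; simpa using hfwd 0
      · have hall : ∀ z : ℤ, -(j : ℤ) < z → (((n : ℤ) + z) ∈ B ↔ ((m : ℤ) + z) ∈ B) := by
          intro z hz
          by_cases hz0 : 0 ≤ z
          · obtain ⟨k, rfl⟩ : ∃ k : ℕ, z = k := ⟨z.toNat, by omega⟩
            exact hfwd k
          · obtain ⟨k, rfl⟩ : ∃ k : ℕ, z = -(k : ℤ) := ⟨(-z).toNat, by omega⟩
            have := ih k (by omega)
            simpa [sub_eq_add_neg] using this
        rw [F2 ((n : ℤ) - j), F2 ((m : ℤ) - j)]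
        apply not_congr
        constructor
        · rintro ⟨b, hb, h1, h2, h3⟩
          refine ⟨(m : ℤ) + (b - n), (hall (b - n) (by omega)).mp (by simpa using hb),
            by omega, by omega, ?_⟩
          have : (m : ℤ) - j + D - (m + (b - n)) = (n : ℤ) - j + D - b := by ring
          rwa [this]
        · rintro ⟨b, hb, h1, h2, h3⟩
          refine ⟨(n : ℤ) + (b - m), (hall (b - m) (by omega)).mpr (by simpa using hb),
            by omega, by omega, ?_⟩
          have : (n : ℤ) - j + D - (n + (b - m)) = (m : ℤ) - j + D - b := by ring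
          rwa [this]
  refine ⟨m - n, by omega, by omega, fun x => ?_⟩
  have hcast : ((m - n : ℕ) : ℤ) = (m : ℤ) - n := by omega
  rw [hcast]
  by_cases hx : (n : ℤ) ≤ x
  · obtain ⟨k, rfl⟩ : ∃ k : ℕ, x = (n : ℤ) + k := ⟨(x - n).toNat, by omega⟩
    have := hfwd k
    have e : (n : ℤ) + k + (m - n) = m + k := by ring
    rw [e]; exact this.symm
  · obtain ⟨k, rfl⟩ : ∃ k : ℕ, x = (n : ℤ) - k := ⟨(n - x).toNat, by omega⟩
    have := hbwd k
    have e : (n : ℤ) - k + (m - n) = m - k := by ring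
    rw [e]; exact this.symm

lemma newman_uniform (J : Finset ℤ) (D : ℕ) (h0 : (0 : ℤ) ∈ J) (hD : (D : ℤ) ∈ J)
    (hJ : ∀ j ∈ J, 0 ≤ j ∧ j ≤ D) (B : Set ℤ) (hB : IsTiling B J) :
    ∀ x : ℤ, x + ((2 ^ D).factorial : ℕ) ∈ B ↔ x ∈ B := by
  obtain ⟨q, hq, hle, hper⟩ := newman_period J D h0 hD hJ B hB
  obtain ⟨k, hk⟩ : q ∣ (2 ^ D).factorial := Nat.dvd_factorial hq hle
  rw [hk]
  have : ∀ k : ℕ, ∀ x : ℤ, x + ((q * k : ℕ) : ℤ) ∈ B ↔ x ∈ B := by
    intro k
    induction k with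
    | zero => intro x; simp
    | succ k ih =>
      intro x
      have e : x + ((q * (k + 1) : ℕ) : ℤ) = (x + ((q * k : ℕ) : ℤ)) + q := by push_cast; ring
      rw [e, hper, ih]
  exact this k

variable {G : Type*} [AddCommGroup G]

/-- A finite subset of a line `f₀ + ℤ t` (`t` of infinite order) is rigid. -/
lemma line_rigid (t : G) (ht : ∀ n : ℤ, n • t = 0 → n = 0) (f₀ : G) (F : Finset G)
    (hF : ∀ f ∈ F, ∃ n : ℤ, f = f₀ + n • t) : ∃ e : ℕ, 0 < e ∧ IsRigid e F := by
  classical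
  by_cases hne : F.Nonempty
  swap
  · refine ⟨1, one_pos, fun B _ f hf => ?_⟩
    exact absurd ⟨f, hf⟩ hne
  -- coordinates
  choose! ν hν using hF
  set J₀ : Finset ℤ := F.image ν with hJ₀
  have hJ₀ne : J₀.Nonempty := hne.image ν
  set a : ℤ := J₀.min' hJ₀ne with ha
  set c : ℤ := J₀.max' hJ₀ne with hc
  have hac : a ≤ c := Finset.min'_le _ _ (Finset.max'_mem _ _)
  set D : ℕ := (c - a).toNat with hD
  set J : Finset ℤ := J₀.image (fun j => j - a) with hJ
  set f₁ : G := f₀ + a • t with hf₁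
  have hJ0 : (0 : ℤ) ∈ J := Finset.mem_image.mpr ⟨a, Finset.min'_mem _ _, by simp⟩
  have hJD : (D : ℤ) ∈ J := Finset.mem_image.mpr ⟨c, Finset.max'_mem _ _, by omega⟩
  have hJb : ∀ j ∈ J, 0 ≤ j ∧ j ≤ D := by
    intro j hj
    obtain ⟨i, hi, rfl⟩ := Finset.mem_image.mp hj
    have h1 := Finset.min'_le _ _ hi
    have h2 := Finset.le_max' _ _ hi
    constructor <;> omega
  have hFJ : ∀ f ∈ F, ν f - a ∈ J ∧ f = f₁ + (ν f - a) • t := by
    intro f hf
    refine ⟨Finset.mem_image.mpr ⟨ν f, Finset.mem_image_of_mem _ hf, rfl⟩, ?_⟩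
    rw [hf₁, sub_smul]
    conv_lhs => rw [hν f hf]
    abel
  have hJF : ∀ j ∈ J, f₁ + j • t ∈ F := by
    intro j hj
    obtain ⟨i, hi, rfl⟩ := Finset.mem_image.mp hj
    obtain ⟨f, hf, rfl⟩ := Finset.mem_image.mp hi
    rw [← (hFJ f hf).2]; exact hf
  have hinj : ∀ i j : ℤ, f₁ + i • t = f₁ + j • t → i = j := by
    intro i j h
    have h1 : (i - j) • t = 0 := by
      rw [sub_smul, sub_eq_zero]; exact add_left_cancel h
    have := ht _ h1
    omega
  refine ⟨(2 ^ D).factorial, Nat.factorial_pos _, fun B hB => ?_⟩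
  have hB' : IsTiling B F := (isTiling_iff_level_one B F).mpr hB
  have hslice : ∀ x : G, IsTiling {n : ℤ | x + n • t ∈ B} J := by
    intro x g
    obtain ⟨⟨b, f⟩, ⟨hb, hf, hs⟩, huniq⟩ := hB' (x + g • t + f₁)
    simp only at hb hf hs
    obtain ⟨j, hjJ, hfe⟩ : ∃ j ∈ J, f = f₁ + j • t := ⟨_, (hFJ f hf).1, (hFJ f hf).2⟩
    have hbe : b = x + (g - j) • t := by
      have : b = x + g • t + f₁ - f := by rw [← hs]; abel
      rw [this, hfe, sub_smul]; abel
    refine ⟨(g - j, j), ⟨by change x + (g - j) • t ∈ B; rw [← hbe]; exact hb, hjJ, by simp⟩, ?_⟩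
    rintro ⟨n, j'⟩ ⟨hn, hj', hsum⟩
    simp only at hn hj' hsum
    have := huniq (x + n • t, f₁ + j' • t) ⟨hn, hJF j' hj', by
      simp only
      rw [← hsum, add_smul]; abel⟩
    have h2 : f₁ + j' • t = f := congrArg Prod.snd this
    rw [hfe] at h2
    have h3 : j' = j := hinj _ _ h2
    have h4 : n = g - j := by omega
    rw [h3, h4]
  have het : ((2 ^ D).factorial : ℕ) • t ∈ stab B := by
    intro x
    have := newman_uniform J D hJ0 hJD hJb _ (hslice x) 0
    simp only [Set.mem_ofPred_eq, zero_add, zero_smul, add_zero, natCast_zsmul] at this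
    exact this
  intro f hf f' hf'
  have e : (2 ^ D).factorial • (f - f') = (ν f - ν f') • ((2 ^ D).factorial • t) := by
    have this : f - f' = (ν f - ν f') • t := by
      conv_lhs => rw [(hFJ f hf).2, (hFJ f' hf').2]
      rw [sub_smul, sub_smul, sub_smul]; abel
    rw [this, smul_comm]
  rw [e]
  exact (stab B).zsmul_mem het _


end Vale.Agent.Lib.P043
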