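import Vale.Agent.Lib.P043.Defs
open Finset

namespace Vale.Agent.Lib.P043

variable {G : Type*} [AddCommGroup G]


/-- shift operator on functions -/
def shiftEnd (R : Type*) [CommRing R] (g : G) : Module.End R (G → R) where
  toFun := fun φ x => φ (x - g)
  map_add' := by intros; rfl
  map_smul' := by intros; rfl

def shiftHom (R : Type*) [CommRing R] : Multiplicative G →* Module.End R (G → R) where
  toFun g := shiftEnd R (Multiplicative.toAdd g)
  map_one' := by ext φ x; simp [shiftEnd]
  map_mul' a b := by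
    ext φ x
    simp only [shiftEnd, toAdd_mul, LinearMap.coe_mk, AddHom.coe_mk, Module.End.mul_apply]
    congr 1; abel

noncomputable def act (R : Type*) [CommRing R] : AddMonoidAlgebra R G →ₐ[R] Module.End R (G → R) :=
  AddMonoidAlgebra.lift R (Module.End R (G → R)) G (shiftHom R)

lemma act_single (R : Type*) [CommRing R] (g : G) (φ : G → R) (x : G) :
    act R (AddMonoidAlgebra.single g 1) φ x = φ (x - g) := by
  simp [act, AddMonoidAlgebra.lift_single, shiftHom, shiftEnd]

lemma act_sum (R : Type*) [CommRing R] (F : Finset G) (c : ℕ) (φ : G → R) (x : G) :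
    act R (∑ f ∈ F, AddMonoidAlgebra.single (c • f) 1) φ x = ∑ f ∈ F, φ (x - c • f) := by
  rw [map_sum]
  simp [LinearMap.sum_apply, Finset.sum_apply, act_single]

/-- Frobenius: if `φ : G → ZMod p` has constant `F`-sums and `p ∣ |F|`, then its `pF`-sums vanish. -/
lemma frobenius_sum (p : ℕ) [hp : Fact p.Prime] (F : Finset G) (hF : (p : ℕ) ∣ F.card)
    (φ : G → ZMod p) (c : ZMod p) (hφ : ∀ x, ∑ f ∈ F, φ (x - f) = c) (x : G) :
    ∑ f ∈ F, φ (x - p • f) = 0 := by
  set P : AddMonoidAlgebra (ZMod p) G := ∑ f ∈ F, AddMonoidAlgebra.single f 1 with hP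
  have : CharP (AddMonoidAlgebra (ZMod p) G) p :=
    charP_of_injective_algebraMap (algebraMap (ZMod p) (AddMonoidAlgebra (ZMod p) G)).injective p
  have hPp : P ^ p = ∑ f ∈ F, AddMonoidAlgebra.single (p • f) 1 := by
    rw [hP, sum_pow_char]
    refine Finset.sum_congr rfl fun f _ => ?_
    rw [AddMonoidAlgebra.single_pow, one_pow]
  have h1 : ∀ ψ : G → ZMod p, ∀ y, act (ZMod p) P ψ y = ∑ f ∈ F, ψ (y - f) := by
    intro ψ y
    have := act_sum (ZMod p) F 1 ψ y
    simp only [one_smul] at this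
    exact this
  have h2 : act (ZMod p) P φ = fun _ => c := by
    ext y; rw [h1, hφ]
  have h3 : act (ZMod p) P (fun _ => c) = 0 := by
    ext y; rw [h1]
    simp only [sum_const, Pi.zero_apply]
    obtain ⟨m, hm⟩ := hF
    rw [hm]
    simp [mul_smul]
  have h4 : act (ZMod p) (P ^ p) φ = 0 := by
    obtain ⟨k, hk⟩ : ∃ k, p = k + 2 := ⟨p - 2, by have := hp.out.two_le; omega⟩
    have : P ^ p = P ^ k * (P * P) := by rw [← pow_two, ← pow_add, ← hk]
    rw [this, map_mul, Module.End.mul_apply, map_mul, Module.End.mul_apply, h2, h3, map_zero]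
  have h5 := act_sum (ZMod p) F p φ x
  rw [← hPp, h4] at h5
  simpa using h5.symm



lemma exists_exponent [AddGroup.FG G] (H : AddSubgroup G) :
    ∃ m : ℕ, 0 < m ∧ ∀ g : G, ∀ j : ℕ, 0 < j → j • g ∈ H → m • g ∈ H := by
  have : Module.Finite ℤ (G ⧸ H) := Module.Finite.iff_addGroup_fg.mpr (QuotientAddGroup.fg H)
  have hN : IsNoetherian ℤ (G ⧸ H) := isNoetherian_of_isNoetherianRing_of_finite ℤ _
  have hfin : Finite (Submodule.torsion ℤ (G ⧸ H)) :=
    Module.finite_of_fg_torsion _ (Submodule.torsion_isTorsion)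
  refine ⟨Nat.card (Submodule.torsion ℤ (G ⧸ H)), Nat.card_pos, fun g j hj hg => ?_⟩
  have hmem : (QuotientAddGroup.mk g : G ⧸ H) ∈ Submodule.torsion ℤ (G ⧸ H) := by
    rw [Submodule.mem_torsion_iff]
    refine ⟨⟨(j : ℤ), mem_nonZeroDivisors_of_ne_zero (by exact_mod_cast hj.ne')⟩, ?_⟩
    change (j : ℤ) • (QuotientAddGroup.mk g : G ⧸ H) = 0
    rw [natCast_zsmul, ← QuotientAddGroup.mk_nsmul]
    exact (QuotientAddGroup.eq_zero_iff _).mpr hg
  have h0 : Nat.card (Submodule.torsion ℤ (G ⧸ H)) •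
      (⟨_, hmem⟩ : Submodule.torsion ℤ (G ⧸ H)) = 0 := card_nsmul_eq_zero'
  have h1 := congrArg Subtype.val h0
  rw [AddSubmonoidClass.coe_nsmul, ZeroMemClass.coe_zero] at h1
  change _ • (QuotientAddGroup.mk g : G ⧸ H) = 0 at h1
  rw [← QuotientAddGroup.mk_nsmul] at h1
  exact (QuotientAddGroup.eq_zero_iff _).mp h1

lemma finiteIndex_nsmul_range [AddGroup.FG G] (N : ℕ) (hN : 0 < N) :
    (nsmulAddMonoidHom (α := G) N).range.FiniteIndex := by
  set L := (nsmulAddMonoidHom (α := G) N).range
  have : AddGroup.FG (G ⧸ L) := QuotientAddGroup.fg L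
  have ht : IsAddTorsion (G ⧸ L) := by
    intro x
    induction x using QuotientAddGroup.induction_on with
    | H g =>
      rw [isOfFinAddOrder_iff_nsmul_eq_zero]
      refine ⟨N, hN, ?_⟩
      rw [← QuotientAddGroup.mk_nsmul]
      exact (QuotientAddGroup.eq_zero_iff _).mpr ⟨g, rfl⟩
  have : Finite (G ⧸ L) := AddCommGroup.finite_of_fg_isAddTorsion _ ht
  exact AddSubgroup.finiteIndex_of_finite_quotient

lemma isTiling_iff_level_one (A : Set G) (F : Finset G) :
    IsTiling A F ↔ IsLevelTiling 1 A F := by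
  classical
  constructor
  · intro h x
    obtain ⟨q, ⟨hq1, hq2, hq3⟩, huniq⟩ := h x
    rw [Finset.card_eq_one]
    refine ⟨q.2, ?_⟩
    ext f
    simp only [mem_filter, mem_singleton]
    constructor
    · rintro ⟨hf, hxf⟩
      have := huniq (x - f, f) ⟨hxf, hf, by simp⟩
      rw [← this]
    · rintro rfl
      refine ⟨hq2, ?_⟩
      have : x - q.2 = q.1 := by rw [← hq3]; abel
      rw [this]; exact hq1
  · intro h x
    obtain ⟨f, hf⟩ := Finset.card_eq_one.mp (h x)
    have hfm : f ∈ F.filter (fun f => x - f ∈ A) := by rw [hf]; simp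
    rw [mem_filter] at hfm
    refine ⟨(x - f, f), ⟨hfm.2, hfm.1, by simp⟩, ?_⟩
    rintro ⟨a, g⟩ ⟨ha, hg, hag⟩
    simp only at ha hg hag
    have hgm : g ∈ F.filter (fun f => x - f ∈ A) := by
      rw [mem_filter]; refine ⟨hg, ?_⟩
      have : x - g = a := by rw [← hag]; abel
      rw [this]; exact ha
    rw [hf, mem_singleton] at hgm
    subst hgm
    have : a = x - g := by rw [← hag]; abel
    rw [this]

/-- the stabiliser of a set as a subgroup -/
def stab (A : Set G) : AddSubgroup G where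
  carrier := {h | ∀ a : G, a + h ∈ A ↔ a ∈ A}
  zero_mem' := by intro a; simp
  add_mem' := by
    intro h h' hh hh' a
    rw [← add_assoc, hh', hh]
  neg_mem' := by
    intro h hh a
    have := hh (a + -h)
    rw [neg_add_cancel_right] at this
    exact this.symm

lemma prime_step (p : ℕ) (hp : p.Prime) (F : Finset G) (hF : F.card = p) (k : ℕ) (A : Set G)
    (hA : IsLevelTiling k A F) (f0 f1 : G) (h0 : f0 ∈ F) (h1 : f1 ∈ F) (a : G) (ha : a ∈ A) :
    a + p • (f0 - f1) ∈ A := by
  classical
  have : Fact p.Prime := ⟨hp⟩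
  set φ : G → ZMod p := fun x => if x ∈ A then 1 else 0 with hφ
  have hsum : ∀ (c : ℕ) (x : G), ∑ f ∈ F, φ (x - c • f) =
      ((F.filter (fun f => x - c • f ∈ A)).card : ZMod p) := by
    intro c x
    rw [Finset.card_filter]
    push_cast
    rfl
  have key := frobenius_sum p F (by rw [hF]) φ (k : ZMod p)
    (by intro x; have := hsum 1 x; simp only [one_smul] at this; rw [this, hA x]) (a + p • f0)
  rw [hsum, ZMod.natCast_eq_zero_iff] at key
  set S := F.filter (fun f => a + p • f0 - p • f ∈ A) with hS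
  have hmem : f0 ∈ S := by
    rw [hS, mem_filter]; exact ⟨h0, by simpa using ha⟩
  have hpos : 0 < S.card := Finset.card_pos.mpr ⟨f0, hmem⟩
  have hle : S.card ≤ p := by rw [← hF]; exact Finset.card_le_card (filter_subset _ _)
  have hcard : S.card = F.card := by
    rw [hF]; exact le_antisymm hle (Nat.le_of_dvd hpos key)
  have hSF : S = F := Finset.eq_of_subset_of_card_le (filter_subset _ _) hcard.ge
  have : f1 ∈ S := by rw [hSF]; exact h1
  rw [hS, mem_filter] at this
  have h2 := this.2
  have : a + p • (f0 - f1) = a + p • f0 - p • f1 := by rw [smul_sub]; abel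
  rw [this]; exact h2

lemma prime_stab (p : ℕ) (hp : p.Prime) (F : Finset G) (hF : F.card = p) (k : ℕ) (A : Set G)
    (hA : IsLevelTiling k A F) (f0 f1 : G) (h0 : f0 ∈ F) (h1 : f1 ∈ F) :
    p • (f0 - f1) ∈ stab A := by
  intro a
  constructor
  · intro ha
    have := prime_step p hp F hF k A hA f1 f0 h1 h0 _ ha
    have e : a + p • (f0 - f1) + p • (f1 - f0) = a := by
      rw [add_assoc, ← smul_add]; simp
    rwa [e] at this
  · exact prime_step p hp F hF k A hA f0 f1 h0 h1 a

lemma extend_tiling (H L S : AddSubgroup G) (F : Finset G) (f0 : G)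
    (hFH : ∀ f ∈ F, f - f0 ∈ H) (k : ℕ) (A : Set G) (hA : IsLevelTiling k A F)
    (hS : InvariantUnder A S) (hHL : H ⊓ L ≤ S) :
    ∃ A' : Set G, IsLevelTiling k A' F ∧ InvariantUnder A' L := by
  classical
  set M := H ⊔ L with hM
  let rep : G → G := fun y => Quotient.out (QuotientAddGroup.mk y : G ⧸ M)
  have hrep_mem : ∀ y, y - rep y ∈ M := by
    intro y
    have : (QuotientAddGroup.mk (rep y) : G ⧸ M) = QuotientAddGroup.mk y :=
      QuotientAddGroup.out_eq' _
    rw [QuotientAddGroup.eq] at this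
    have e : y - rep y = -rep y + y := by abel
    rw [e]; exact this
  have hrep_eq : ∀ y m, m ∈ M → rep (y + m) = rep y := by
    intro y m hm
    have : (QuotientAddGroup.mk (y + m) : G ⧸ M) = QuotientAddGroup.mk y := by
      rw [QuotientAddGroup.eq]
      have e : -(y + m) + y = -m := by abel
      rw [e]; exact M.neg_mem hm
    simp only [rep, this]
  let A' : Set G := {y | ∃ h ∈ H, ∃ l ∈ L, y + f0 - rep (y + f0) = h + l ∧ h - f0 ∈ A}
  -- well-definedness
  have hwd : ∀ y h l, h ∈ H → l ∈ L → y + f0 - rep (y + f0) = h + l → (y ∈ A' ↔ h - f0 ∈ A) := by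
    intro y h l hh hl hy
    constructor
    · rintro ⟨h', hh', l', hl', hy', hA'⟩
      have hd : h - h' ∈ S := by
        apply hHL
        refine ⟨H.sub_mem hh hh', ?_⟩
        have : h - h' = l' - l := by
          have := hy.symm.trans hy'
          rw [sub_eq_sub_iff_add_eq_add]
          rw [this]; abel
        change h - h' ∈ L
        rw [this]; exact L.sub_mem hl' hl
      have := (hS _ hd (h' - f0)).mpr hA'
      have e : h' - f0 + (h - h') = h - f0 := by abel
      rwa [e] at this
    · intro hAh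
      exact ⟨h, hh, l, hl, hy, hAh⟩
  refine ⟨A', ?_, ?_⟩
  · intro x
    obtain ⟨hx, hhx, lx, hlx, hxe⟩ := AddSubgroup.mem_sup.mp (hrep_mem x)
    rw [← hA hx]
    congr 1
    apply Finset.filter_congr
    intro f hf
    have hfM : -(f - f0) ∈ M := M.neg_mem (AddSubgroup.mem_sup_left (hFH f hf))
    have e1 : x - f + f0 = x + -(f - f0) := by abel
    have e2 : rep (x - f + f0) = rep x := by rw [e1]; exact hrep_eq _ _ hfM
    have := hwd (x - f) (hx - (f - f0)) lx (H.sub_mem hhx (hFH f hf)) hlx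
      (by rw [e2, e1]
          have : x + -(f - f0) - rep x = (x - rep x) - (f - f0) := by abel
          rw [this, ← hxe]; abel)
    rw [this]
    have e3 : hx - (f - f0) - f0 = hx - f := by abel
    rw [e3]
  · intro l0 hl0 y
    have hl0M : l0 ∈ M := AddSubgroup.mem_sup_right hl0
    have e1 : y + l0 + f0 = y + f0 + l0 := by abel
    have e2 : rep (y + l0 + f0) = rep (y + f0) := by rw [e1]; exact hrep_eq _ _ hl0M
    obtain ⟨h, hh, l, hl, hy⟩ := AddSubgroup.mem_sup.mp (hrep_mem (y + f0))
    rw [hwd y h l hh hl hy.symm]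
    rw [hwd (y + l0) h (l + l0) hh (L.add_mem hl hl0)
      (by rw [e2, e1]
          have : y + f0 + l0 - rep (y + f0) = (y + f0 - rep (y + f0)) + l0 := by abel
          rw [this, ← hy]; abel)]


theorem prime_periodic [AddGroup.FG G] (F : Finset G) (hp : F.card.Prime) (k : ℕ) (A : Set G)
    (hA : IsLevelTiling k A F) : ∃ A' : Set G, IsLevelTiling k A' F ∧ IsPeriodic A' := by
  classical
  set p := F.card with hpdef
  have hne : F.Nonempty := Finset.card_pos.mp hp.pos
  obtain ⟨f0, hf0⟩ := hne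
  set H : AddSubgroup G := AddSubgroup.closure ((fun f => f - f0) '' (F : Set G)) with hH
  have hHS : ∀ h ∈ H, p • h ∈ stab A := by
    intro h hh
    induction hh using AddSubgroup.closure_induction with
    | mem x hx =>
      obtain ⟨f, hf, rfl⟩ := hx
      exact prime_stab p hp F rfl k A hA f f0 hf hf0
    | zero => simp
    | add x y _ _ hx hy => rw [smul_add]; exact (stab A).add_mem hx hy
    | neg x _ hx => rw [smul_neg]; exact (stab A).neg_mem hx
  obtain ⟨m, hm, hexp⟩ := exists_exponent H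
  set L := (nsmulAddMonoidHom (α := G) (p * m)).range with hL
  have hLfin : L.FiniteIndex := finiteIndex_nsmul_range _ (Nat.mul_pos hp.pos hm)
  have hHL : H ⊓ L ≤ stab A := by
    rintro x ⟨hxH, g, rfl⟩
    change (p * m) • g ∈ stab A
    have h1 : m • g ∈ H := hexp g (p * m) (Nat.mul_pos hp.pos hm) hxH
    rw [mul_smul]
    exact hHS _ h1
  obtain ⟨A', h1, h2⟩ := extend_tiling H L (stab A) F f0
    (fun f hf => AddSubgroup.subset_closure ⟨f, hf, rfl⟩) k A hA (fun h hh a => hh a) hHL
  exact ⟨A', h1, L, hLfin, h2⟩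

end Vale.Agent.Lib.P043
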